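import Mathlib
import Vale.Agent.Lib.P069.Defs
import Vale.Agent.Lib.P069.Main

namespace Vale.Agent.Results.P069.A_main

open Vale.Agent.Lib.P069

/-- There is a reflexive infinite-dimensional real Banach space whose norm is asymptotically
midpoint uniformly convex and which admits no equivalent asymptotically uniformly convex norm. -/
theorem result :
    ∃ (X : Type) (_ : NormedAddCommGroup X) (_ : NormedSpace ℝ X) (_ : CompleteSpace X),
      ¬ FiniteDimensional ℝ X ∧
      Function.Surjective (NormedSpace.inclusionInDoubleDual ℝ X) ∧
      IsAMUC (fun x : X => ‖x‖) ∧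
      ¬ ∃ N : X → ℝ, IsEquivNorm N ∧ IsAUC N :=
  main_theorem

end Vale.Agent.Results.P069.A_main
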